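import Mathlib.MeasureTheory.Measure.Lebesgue.VolumeOfBalls

/-!
# P284, package VL: lattice cubes in `ℂⁿ`
-/

open MeasureTheory Set Metric

noncomputable section

namespace Vale.Agent.P284.H377

variable {n : ℕ}

/-- the index of the lattice cube of side `s` containing `z` -/
def cell (s : ℝ) (z : Fin n → ℂ) : Fin n → ℤ × ℤ := fun i => (⌊(z i).re / s⌋, ⌊(z i).im / s⌋)

/-- the corner of a lattice cube -/
def ctr (s : ℝ) (a : Fin n → ℤ × ℤ) : Fin n → ℂ := fun i => ⟨s * (a i).1, s * (a i).2⟩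

/-- the lattice cube -/
def Qc (s : ℝ) (a : Fin n → ℤ × ℤ) : Set (Fin n → ℂ) := {z | cell s z = a}

theorem dist_ctr {s : ℝ} (hs : 0 < s) (z : Fin n → ℂ) :
    dist z (ctr s (cell s z)) ≤ 3 / 2 * s := by
  rw [dist_pi_le_iff (by positivity)]
  intro i
  rw [Complex.dist_eq]
  have key : ∀ x : ℝ, 0 ≤ x - s * ⌊x / s⌋ ∧ x - s * ⌊x / s⌋ ≤ s := by
    intro x
    have h1 := Int.floor_le (x / s)
    have h2 := (Int.lt_floor_add_one (x / s)).le
    rw [le_div_iff₀ hs] at h1
    rw [div_le_iff₀ hs] at h2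
    constructor <;> nlinarith
  have h1 := key (z i).re
  have h2 := key (z i).im
  have h3 : ‖z i - ctr s (cell s z) i‖ ^ 2 ≤ (3 / 2 * s) ^ 2 := by
    rw [Complex.sq_norm, Complex.normSq_apply]
    simp only [ctr, cell, Complex.sub_re, Complex.sub_im]
    nlinarith [h1.1, h1.2, h2.1, h2.2]
  exact le_of_sq_le_sq h3 (by positivity)

theorem volume_reProdIm (A B : Set ℝ) : volume (A ×ℂ B) = volume A * volume B := by
  have h := Complex.volume_preserving_equiv_real_prod.measure_preimage_equiv (A ×ˢ B)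
  rw [Measure.volume_eq_prod, Measure.prod_prod] at h
  rw [← h]
  rfl

theorem Qc_eq {s : ℝ} (hs : 0 < s) (a : Fin n → ℤ × ℤ) : Qc s a = Set.pi univ fun i =>
    (Ico (s * (a i).1) (s * (a i).1 + s)) ×ℂ (Ico (s * (a i).2) (s * (a i).2 + s)) := by
  ext z
  simp only [Qc, cell, mem_ofPred_eq, funext_iff, Prod.ext_iff, Set.mem_pi, mem_univ, true_imp_iff,
    Complex.mem_reProdIm, mem_Ico, Int.floor_eq_iff]
  have key : ∀ (x : ℝ) (m : ℤ), ((m : ℝ) ≤ x / s ∧ x / s < m + 1) ↔
      (s * m ≤ x ∧ x < s * m + s) := by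
    intro x m
    rw [le_div_iff₀ hs, div_lt_iff₀ hs]
    constructor <;> rintro ⟨h1, h2⟩ <;> constructor <;> nlinarith
  simp only [key]

theorem volume_Qc {s : ℝ} (hs : 0 < s) (a : Fin n → ℤ × ℤ) :
    volume (Qc s a) = ENNReal.ofReal (s ^ 2) ^ n := by
  rw [Qc_eq hs, volume_pi_pi]
  simp only [volume_reProdIm, Real.volume_Ico, add_sub_cancel_left]
  rw [Finset.prod_const, Finset.card_univ, Fintype.card_fin, ← ENNReal.ofReal_mul hs.le, sq]

theorem measurableSet_Qc {s : ℝ} (hs : 0 < s) (a : Fin n → ℤ × ℤ) : MeasurableSet (Qc s a) := by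
  rw [Qc_eq hs]
  refine MeasurableSet.univ_pi fun i => ?_
  exact (measurableSet_Ico.preimage Complex.measurable_re).inter
    (measurableSet_Ico.preimage Complex.measurable_im)

theorem volume_ball_ctr {s : ℝ} (hs : 0 < s) (x : Fin n → ℂ) (a : Fin n → ℤ × ℤ) :
    (volume (closedBall x (2 * s))).toReal ≤ 16 ^ n * (volume (Qc s a)).toReal := by
  rw [volume_Qc hs, volume_pi_closedBall _ (by positivity)]
  simp only [Complex.volume_closedBall, Finset.prod_const, Finset.card_univ, Fintype.card_fin]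
  rw [ENNReal.toReal_pow, ENNReal.toReal_mul, ENNReal.toReal_pow, ENNReal.toReal_pow,
    ENNReal.toReal_ofReal (by positivity), ENNReal.toReal_ofReal (by positivity), ← mul_pow]
  refine pow_le_pow_left₀ (by positivity) ?_ n
  have h1 : ((NNReal.pi : ENNReal)).toReal = Real.pi := rfl
  rw [h1]
  have := Real.pi_le_four
  nlinarith [sq_nonneg s]

theorem finite_cells {s : ℝ} {P : Set (Fin n → ℂ)} (hs : 0 < s) (hP : Bornology.IsBounded P) :
    (cell s '' P).Finite := by
  obtain ⟨R, hR⟩ := hP.exists_norm_le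
  have h1 : cell s '' P ⊆ Set.pi univ fun _ : Fin n =>
      (Icc ⌊-R / s⌋ ⌊R / s⌋ ×ˢ Icc ⌊-R / s⌋ ⌊R / s⌋ : Set (ℤ × ℤ)) := by
    rintro _ ⟨z, hz, rfl⟩ i -
    have h2 : ‖z i‖ ≤ R := (norm_le_pi_norm z i).trans (hR z hz)
    have h3 := abs_le.1 ((Complex.abs_re_le_norm (z i)).trans h2)
    have h4 := abs_le.1 ((Complex.abs_im_le_norm (z i)).trans h2)
    refine ⟨⟨Int.floor_le_floor ?_, Int.floor_le_floor ?_⟩,
      ⟨Int.floor_le_floor ?_, Int.floor_le_floor ?_⟩⟩
    · exact div_le_div_of_nonneg_right h3.1 hs.le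
    · exact div_le_div_of_nonneg_right h3.2 hs.le
    · exact div_le_div_of_nonneg_right h4.1 hs.le
    · exact div_le_div_of_nonneg_right h4.2 hs.le
  exact (Set.Finite.pi fun _ => (finite_Icc _ _).prod (finite_Icc _ _)).subset h1

theorem card_overlap {s : ℝ} (hs : 0 < s) (z : Fin n → ℂ) (F : Finset (Fin n → ℤ × ℤ)) :
    (F.filter fun a => dist z (ctr s a) < 2 * s).card ≤ 16 ^ n := by
  classical
  set G : Finset (Fin n → ℤ × ℤ) := Fintype.piFinset fun i =>
    Finset.Icc (⌊(z i).re / s⌋ - 1) (⌊(z i).re / s⌋ + 2) ×ˢ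
      Finset.Icc (⌊(z i).im / s⌋ - 1) (⌊(z i).im / s⌋ + 2) with hG
  have h1 : (F.filter fun a => dist z (ctr s a) < 2 * s) ⊆ G := by
    intro a ha
    have h2 := (Finset.mem_filter.1 ha).2
    rw [hG, Fintype.mem_piFinset]
    intro i
    have h3 : ‖z i - ctr s a i‖ < 2 * s := by
      rw [← Complex.dist_eq]
      exact (dist_le_pi_dist z (ctr s a) i).trans_lt h2
    have h4 := abs_lt.1 ((Complex.abs_re_le_norm _).trans_lt h3)
    have h5 := abs_lt.1 ((Complex.abs_im_le_norm _).trans_lt h3)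
    simp only [ctr, Complex.sub_re, Complex.sub_im] at h4 h5
    have key : ∀ (x : ℝ) (m : ℤ), -(2 * s) < x - s * m → x - s * m < 2 * s →
        m ∈ Finset.Icc (⌊x / s⌋ - 1) (⌊x / s⌋ + 2) := by
      intro x m h1 h2
      rw [Finset.mem_Icc]
      have h3 : (m : ℝ) < x / s + 2 := by
        rw [← sub_lt_iff_lt_add, lt_div_iff₀ hs]; nlinarith
      have h4 : x / s < m + 2 := by
        rw [div_lt_iff₀ hs]; nlinarith
      constructor
      · have h5 : (⌊x / s⌋ : ℝ) < m + 2 := (Int.floor_le _).trans_lt h4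
        have h6 : ⌊x / s⌋ < m + 2 := by exact_mod_cast h5
        omega
      · have h5 : (m : ℝ) < ⌊x / s⌋ + 3 := by
          have := Int.lt_floor_add_one (x / s)
          linarith
        have h6 : m < ⌊x / s⌋ + 3 := by exact_mod_cast h5
        omega
    exact Finset.mem_product.2 ⟨key _ _ h4.1 h4.2, key _ _ h5.1 h5.2⟩
  refine (Finset.card_le_card h1).trans (le_of_eq ?_)
  rw [hG, Fintype.card_piFinset]
  have h2 : ∀ x : ℤ, (Finset.Icc (x - 1) (x + 2)).card = 4 := by
    intro x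
    rw [Int.card_Icc]
    have : x + 2 + 1 - (x - 1) = 4 := by ring
    rw [this]; rfl
  simp only [Finset.card_product, h2]
  rw [Finset.prod_const, Finset.card_univ, Fintype.card_fin]

end Vale.Agent.P284.H377
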