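import Mathlib.Analysis.Normed.Module.FiniteDimension
import Mathlib.Analysis.Normed.Module.Basic
import Mathlib.Topology.MetricSpace.Thickening
import Mathlib.Topology.UniformSpace.HeineCantor

/-!
# P284, package VL: positive homogeneous functions at nearby points
-/

open Set Metric Topology

namespace Vale.Agent.P284.H377

theorem exists_unif {E V : Type*} [NormedAddCommGroup E] [NormedSpace ℝ E]
    [FiniteDimensional ℝ E] [MetricSpace V] [ProperSpace V] {P U : Set V} (hP : IsCompact P)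
    (hU : IsOpen U) (hPU : P ⊆ U) (F : V → E → ℝ)
    (hc : ContinuousOn (fun p : V × E => F p.1 p.2) (U ×ˢ univ))
    (hpos : ∀ z ∈ U, ∀ X, X ≠ 0 → 0 < F z X) (hsc : ∀ z X (c : ℝ), F z (c • X) = c ^ 2 * F z X) :
    ∃ δ > 0, ∀ z z', (∃ p ∈ P, dist z p < δ ∧ dist z' p < δ) →
      z ∈ U ∧ z' ∈ U ∧ ∀ X, F z X ≤ 2 * F z' X := by
  obtain ⟨δ₀, hδ₀, hK⟩ := hP.exists_cthickening_subset_open hU hPU
  have hKc : IsCompact (cthickening δ₀ P) := hP.cthickening
  have hS : IsCompact (sphere (0 : E) 1) := isCompact_sphere 0 1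
  have hT : IsCompact (cthickening δ₀ P ×ˢ sphere (0 : E) 1) := hKc.prod hS
  have hTc : ContinuousOn (fun p : V × E => F p.1 p.2) (cthickening δ₀ P ×ˢ sphere (0 : E) 1) :=
    hc.mono (prod_mono hK (subset_univ _))
  have hmin : ∃ m > 0, ∀ p ∈ cthickening δ₀ P ×ˢ sphere (0 : E) 1, m ≤ F p.1 p.2 := by
    rcases (cthickening δ₀ P ×ˢ sphere (0 : E) 1).eq_empty_or_nonempty with h | h
    · exact ⟨1, one_pos, fun p hp => by rw [h] at hp; exact absurd hp (notMem_empty _)⟩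
    · obtain ⟨p, hp, hm⟩ := hT.exists_isMinOn h hTc
      refine ⟨F p.1 p.2, hpos _ (hK hp.1) _ ?_, fun q hq => hm hq⟩
      intro h0
      have := hp.2
      rw [h0] at this
      simp at this
  obtain ⟨m, hm, hmF⟩ := hmin
  have hu := Metric.uniformContinuousOn_iff.1 (hT.uniformContinuousOn_of_continuous hTc) m hm
  obtain ⟨δ₁, hδ₁, hu⟩ := hu
  refine ⟨min δ₀ (δ₁ / 2), lt_min hδ₀ (half_pos hδ₁), ?_⟩
  rintro z z' ⟨p, hp, h1, h2⟩
  have hz : z ∈ cthickening δ₀ P := mem_cthickening_of_dist_le z p δ₀ P hp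
    (h1.le.trans (min_le_left _ _))
  have hz' : z' ∈ cthickening δ₀ P := mem_cthickening_of_dist_le z' p δ₀ P hp
    (h2.le.trans (min_le_left _ _))
  refine ⟨hK hz, hK hz', fun X => ?_⟩
  have hzero : ∀ z, F z 0 = 0 := fun z => by
    have := hsc z 0 0
    simpa using this
  by_cases hX : X = 0
  · rw [hX, hzero, hzero]; simp
  have hX' : 0 < ‖X‖ := norm_pos_iff.2 hX
  have hXe : X = ‖X‖ • (‖X‖⁻¹ • X) := by
    rw [smul_smul, mul_inv_cancel₀ hX'.ne', one_smul]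
  have hmem : ‖X‖⁻¹ • X ∈ sphere (0 : E) 1 := by
    rw [mem_sphere_zero_iff_norm, norm_smul, norm_inv, norm_norm, inv_mul_cancel₀ hX'.ne']
  have hd : dist (z, ‖X‖⁻¹ • X) (z', ‖X‖⁻¹ • X) < δ₁ := by
    rw [Prod.dist_eq, dist_self]
    have h3 : dist z z' < δ₁ := by
      calc dist z z' ≤ dist z p + dist p z' := dist_triangle _ _ _
        _ = dist z p + dist z' p := by rw [dist_comm p z']
        _ < δ₁ / 2 + δ₁ / 2 := add_lt_add (h1.trans_le (min_le_right _ _))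
            (h2.trans_le (min_le_right _ _))
        _ = δ₁ := add_halves _
    exact max_lt h3 hδ₁
  have h4 := hu _ ⟨hz, hmem⟩ _ ⟨hz', hmem⟩ hd
  have h5 := hmF (z', ‖X‖⁻¹ • X) ⟨hz', hmem⟩
  rw [Real.dist_eq] at h4
  have h6 := (abs_lt.1 h4).2
  simp only at h5 h6
  have h7 : F z (‖X‖⁻¹ • X) ≤ 2 * F z' (‖X‖⁻¹ • X) := by linarith
  have h8 := mul_le_mul_of_nonneg_left h7 (sq_nonneg ‖X‖)
  have h9 := hsc z (‖X‖⁻¹ • X) ‖X‖
  have h10 := hsc z' (‖X‖⁻¹ • X) ‖X‖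
  rw [← hXe] at h9 h10
  rw [h9, h10]
  linarith

end Vale.Agent.P284.H377
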